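import Mathlib

/-!
# P207, all dimensions: gradient and Hessian of a composition; positive definite operators
-/

open Set Filter Topology Metric
open scoped ContDiff RealInnerProductSpace

noncomputable section

namespace Vale.Agent.P207.H229

variable {E : Type*} [NormedAddCommGroup E] [InnerProductSpace ℝ E] [FiniteDimensional ℝ E]

theorem inner_gradient' {f : E → ℝ} {q : E} (v : E) : ⟪gradient f q, v⟫ = fderiv ℝ f q v := by
  unfold gradient
  rw [InnerProductSpace.toDual_symm_apply]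

theorem inner_grad_comp {f : E → ℝ} {d : E → E} {q : E} (hf : DifferentiableAt ℝ f (d q))
    (hd : DifferentiableAt ℝ d q) (v : E) :
    ⟪gradient (fun t => f (d t)) q, v⟫ = ⟪gradient f (d q), fderiv ℝ d q v⟫ := by
  rw [inner_gradient', inner_gradient']
  have h1 : HasFDerivAt (fun t => f (d t)) ((fderiv ℝ f (d q)).comp (fderiv ℝ d q)) q :=
    hf.hasFDerivAt.comp q hd.hasFDerivAt
  rw [h1.fderiv]
  rfl

/-- the composition with a local diffeomorphism has the same critical points -/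
theorem grad_comp_eq_zero {f : E → ℝ} {d : E → E} {q : E} (hf : DifferentiableAt ℝ f (d q))
    (hd : DifferentiableAt ℝ d q) (hi : (fderiv ℝ d q).IsInvertible) :
    gradient (fun t => f (d t)) q = 0 ↔ gradient f (d q) = 0 := by
  constructor
  · intro h
    obtain ⟨M, hM⟩ := hi
    refine ext_inner_right ℝ fun v => ?_
    have h1 := inner_grad_comp hf hd (M.symm v)
    rw [h, inner_zero_left, ← hM] at h1
    rw [inner_zero_left, h1]
    change _ = ⟪gradient f (d q), M (M.symm v)⟫
    rw [M.apply_symm_apply]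
  · intro h
    refine ext_inner_right ℝ fun v => ?_
    rw [inner_grad_comp hf hd, h, inner_zero_left, inner_zero_left]

theorem differentiableAt_gradient {f : E → ℝ} {q : E} (hf : ContDiffAt ℝ 2 f q) :
    DifferentiableAt ℝ (gradient f) q := by
  have h1 : DifferentiableAt ℝ (fderiv ℝ f) q :=
    (hf.fderiv_right (m := 1) (by norm_num)).differentiableAt (by norm_num)
  exact ((InnerProductSpace.toDual ℝ E).symm.toContinuousLinearEquiv.differentiableAt).comp q h1

/-- the Hessian of a composition at a critical point -/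
theorem hess_comp_crit {f : E → ℝ} {d : E → E} {q : E} (hf : ContDiffAt ℝ 2 f (d q))
    (hd : ContDiffAt ℝ 2 d q) (h0 : gradient f (d q) = 0) (v w : E) :
    ⟪fderiv ℝ (gradient fun t => f (d t)) q v, w⟫
      = ⟪fderiv ℝ (gradient f) (d q) (fderiv ℝ d q v), fderiv ℝ d q w⟫ := by
  have hc : ContDiffAt ℝ 2 (fun t => f (d t)) q := hf.comp q hd
  have h1 : HasFDerivAt (fun t => ⟪gradient (fun t => f (d t)) t, w⟫)
      ((innerSL ℝ).flip w ∘L fderiv ℝ (gradient fun t => f (d t)) q) q := by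
    have := (((innerSL ℝ).flip w : E →L[ℝ] ℝ).hasFDerivAt).comp q
      (differentiableAt_gradient hc).hasFDerivAt
    exact this
  have hdf : ∀ᶠ t in 𝓝 q, DifferentiableAt ℝ d t := by
    have := hd.eventually (by simp)
    filter_upwards [this] with t ht using ht.differentiableAt (by norm_num)
  have hff : ∀ᶠ t in 𝓝 q, DifferentiableAt ℝ f (d t) := by
    have h2 := hf.eventually (by simp)
    filter_upwards [hd.continuousAt.eventually h2] with t ht using ht.differentiableAt (by norm_num)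
  have hev : (fun t => ⟪gradient (fun t => f (d t)) t, w⟫)
      =ᶠ[𝓝 q] fun t => ⟪gradient f (d t), fderiv ℝ d t w⟫ := by
    filter_upwards [hdf, hff] with t h1 h2 using inner_grad_comp h2 h1 w
  have h3 : HasFDerivAt (fun t => gradient f (d t))
      (fderiv ℝ (gradient f) (d q) ∘L fderiv ℝ d q) q :=
    (differentiableAt_gradient hf).hasFDerivAt.comp q (hd.differentiableAt (by norm_num)).hasFDerivAt
  have h4 : DifferentiableAt ℝ (fun t => fderiv ℝ d t w) q :=
    ((hd.fderiv_right (m := 1) (by norm_num)).differentiableAt (by norm_num)).clm_apply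
      (differentiableAt_const w)
  have h5 := h3.inner ℝ h4.hasFDerivAt
  have h6 := (h5.congr_of_eventuallyEq hev).unique h1
  have h7 := DFunLike.congr_fun h6 v
  simp only [ContinuousLinearMap.comp_apply, fderivInnerCLM_apply, ContinuousLinearMap.prod_apply,
    h0, inner_zero_left, ContinuousLinearMap.flip_apply, innerSL_apply_apply] at h7
  rw [zero_add] at h7
  exact h7.symm

/-- a compact set of positive definite operators is uniformly positive definite -/
theorem coer_compact {C : Set (E →L[ℝ] E)} (hC : IsCompact C)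
    (h : ∀ A ∈ C, ∀ v ≠ 0, 0 < ⟪A v, v⟫) : ∃ c > 0, ∀ A ∈ C, ∀ v, c * ‖v‖ ^ 2 ≤ ⟪A v, v⟫ := by
  have h1 : IsCompact (C ×ˢ sphere (0 : E) 1) := hC.prod (isCompact_sphere _ _)
  have h2 : ContinuousOn (fun a : (E →L[ℝ] E) × E => ⟪a.1 a.2, a.2⟫) (C ×ˢ sphere (0 : E) 1) := by
    fun_prop
  obtain ⟨c, hc, h3⟩ := h1.exists_forall_le' h2 (a := 0) fun a ha => h a.1 ha.1 a.2 (by
    intro h0
    have := ha.2
    rw [h0, mem_sphere_zero_iff_norm, norm_zero] at this
    exact zero_ne_one this)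
  refine ⟨c, hc, fun A hA v => ?_⟩
  by_cases hv : v = 0
  · simp [hv]
  · have hn : ‖v‖ ≠ 0 := norm_ne_zero_iff.2 hv
    have h4 := h3 (A, ‖v‖⁻¹ • v) ⟨hA, by
      rw [mem_sphere_zero_iff_norm, norm_smul, norm_inv, norm_norm, inv_mul_cancel₀ hn]⟩
    simp only [map_smul, inner_smul_left, inner_smul_right] at h4
    have h5 : ‖v‖⁻¹ * (‖v‖⁻¹ * ⟪A v, v⟫) = ⟪A v, v⟫ / ‖v‖ ^ 2 := by
      field_simp
    have h6 : c ≤ ⟪A v, v⟫ / ‖v‖ ^ 2 := by
      rw [← h5]
      simpa using h4
    rwa [le_div_iff₀ (by positivity)] at h6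

theorem isOpen_posdef : IsOpen {A : E →L[ℝ] E | ∀ v ≠ 0, 0 < ⟪A v, v⟫} := by
  rw [Metric.isOpen_iff]
  intro A hA
  obtain ⟨c, hc, h⟩ := coer_compact (isCompact_singleton (x := A))
    (fun A' hA' => by rw [mem_singleton_iff.1 hA']; exact hA)
  refine ⟨c, hc, fun A' hA' v hv => ?_⟩
  have h1 := h A rfl v
  rw [mem_ball, dist_eq_norm] at hA'
  have h2 : |⟪(A' - A) v, v⟫| ≤ ‖A' - A‖ * ‖v‖ * ‖v‖ :=
    (abs_real_inner_le_norm _ _).trans (by gcongr; exact (A' - A).le_opNorm v)
  have h3 : ⟪A' v, v⟫ = ⟪A v, v⟫ + ⟪(A' - A) v, v⟫ := by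
    rw [sub_apply, inner_sub_left]
    ring
  have h4 : 0 < ‖v‖ := norm_pos_iff.2 hv
  rw [h3]
  have h5 := neg_abs_le ⟪(A' - A) v, v⟫
  have h6 : 0 < (c - ‖A' - A‖) * ‖v‖ ^ 2 := mul_pos (by linarith) (by positivity)
  nlinarith

theorem det_ne_zero_of_posdef {A : E →L[ℝ] E} (h : ∀ v ≠ 0, 0 < ⟪A v, v⟫) : A.det ≠ 0 := by
  intro h0
  have h1 : (A : E →ₗ[ℝ] E).ker ≠ ⊥ := by
    intro h2
    have h3 : IsUnit (LinearMap.det (A : E →ₗ[ℝ] E)) := by
      have h4 : Function.Injective (A : E →ₗ[ℝ] E) := LinearMap.ker_eq_bot.1 h2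
      exact (LinearEquiv.ofInjectiveEndo _ h4).isUnit_det'
    exact h3.ne_zero h0
  obtain ⟨v, hv, hv0⟩ := Submodule.exists_mem_ne_zero_of_ne_bot h1
  have h5 := h v hv0
  have h6 : A v = 0 := hv
  rw [h6, inner_zero_left] at h5
  exact lt_irrefl _ h5

end Vale.Agent.P207.H229
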