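import Mathlib

/-!
# P207, all dimensions, PROD-GEO: critical points of a strongly convex function
-/

open Set Filter Topology Metric
open scoped ContDiff RealInnerProductSpace

noncomputable section

namespace Vale.Agent.P207.H229

variable {E : Type*} [NormedAddCommGroup E] [InnerProductSpace ℝ E]

/-- strong monotonicity -/
theorem mono_of_deriv {G : E → E} {p q : E} {r c : ℝ}
    (hd : ∀ x ∈ ball p r, DifferentiableAt ℝ G x)
    (hc : ∀ x ∈ ball p r, ∀ v, c * ‖v‖ ^ 2 ≤ ⟪fderiv ℝ G x v, v⟫) (hq : q ∈ ball p r) :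
    c * ‖q - p‖ ^ 2 ≤ ⟪G q - G p, q - p⟫ := by
  have hr : 0 < r := dist_nonneg.trans_lt (mem_ball.1 hq)
  have hseg : ∀ t ∈ Icc (0 : ℝ) 1, p + t • (q - p) ∈ ball p r := by
    intro t ht
    rw [mem_ball, dist_eq_norm] at hq ⊢
    rw [add_sub_cancel_left, norm_smul, Real.norm_eq_abs, abs_of_nonneg ht.1]
    exact (mul_le_of_le_one_left (norm_nonneg _) ht.2).trans_lt hq
  have hφ : ∀ t ∈ Icc (0 : ℝ) 1, HasDerivAt (fun t : ℝ => ⟪G (p + t • (q - p)), q - p⟫)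
      ⟪fderiv ℝ G (p + t • (q - p)) (q - p), q - p⟫ t := by
    intro t ht
    have h1 : HasDerivAt (fun t : ℝ => p + t • (q - p)) (q - p) t := by
      have := ((hasDerivAt_id t).smul_const (q - p)).const_add p
      simpa using this
    have h2 := (hd _ (hseg t ht)).hasFDerivAt.comp_hasDerivAt t h1
    have h3 := h2.inner ℝ (hasDerivAt_const t (q - p))
    simpa using h3
  obtain ⟨t, ht, h⟩ := exists_hasDerivAt_eq_slope (fun t : ℝ => ⟪G (p + t • (q - p)), q - p⟫)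
    (fun t => ⟪fderiv ℝ G (p + t • (q - p)) (q - p), q - p⟫) (zero_lt_one)
    (fun t ht => (hφ t ht).continuousAt.continuousWithinAt)
    (fun t ht => hφ t (Ioo_subset_Icc_self ht))
  have h4 := hc _ (hseg t (Ioo_subset_Icc_self ht)) (q - p)
  rw [h] at h4
  simpa [inner_sub_left] using h4

/-- **existence of the critical point** -/
theorem exists_crit [FiniteDimensional ℝ E] {F : E → ℝ} {G : E → E} {p : E} {r c ρ : ℝ}
    (hc0 : 0 < c) (hF : ∀ x ∈ ball p r, HasFDerivAt F (innerSL ℝ (G x)) x)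
    (hd : ∀ x ∈ ball p r, DifferentiableAt ℝ G x)
    (hc : ∀ x ∈ ball p r, ∀ v, c * ‖v‖ ^ 2 ≤ ⟪fderiv ℝ G x v, v⟫) (hρ : 0 < ρ) (hρr : ρ < r)
    (hsm : ‖G p‖ < c * ρ) : ∃ q ∈ ball p ρ, G q = 0 := by
  have hsub : closedBall p ρ ⊆ ball p r := closedBall_subset_ball hρr
  have hcont : ContinuousOn F (closedBall p ρ) := fun x hx =>
    (hF x (hsub hx)).continuousAt.continuousWithinAt
  obtain ⟨q, hq, hmin⟩ := (isCompact_closedBall p ρ).exists_isMinOn
    ⟨p, mem_closedBall_self hρ.le⟩ hcont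
  have hmono := mono_of_deriv hd hc (hsub hq)
  -- the derivative in the direction of the centre
  have h1 : 0 ≤ ⟪G q, p - q⟫ := by
    have h2 : p - q ∈ posTangentConeAt (closedBall p ρ) q :=
      sub_mem_posTangentConeAt_of_segment_subset
        ((convex_closedBall p ρ).segment_subset hq (mem_closedBall_self hρ.le))
    have h3 := hmin.localize.hasFDerivWithinAt_nonneg (hF q (hsub hq)).hasFDerivWithinAt h2
    simpa using h3
  have h2 : c * ‖q - p‖ ^ 2 ≤ ‖G p‖ * ‖q - p‖ := by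
    have h3 : ⟪G q, q - p⟫ ≤ 0 := by
      have : q - p = -(p - q) := by abel
      rw [this, inner_neg_right]
      linarith
    have h4 : -⟪G p, q - p⟫ ≤ ‖G p‖ * ‖q - p‖ :=
      (neg_le_abs _).trans (abs_real_inner_le_norm _ _)
    rw [inner_sub_left] at hmono
    linarith
  have h3 : ‖q - p‖ < ρ := by
    by_contra hcon
    push_neg at hcon
    have h4 : c * ρ * ‖q - p‖ ≤ c * ‖q - p‖ ^ 2 := by
      have : c * ρ * ‖q - p‖ = c * (ρ * ‖q - p‖) := by ring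
      rw [this, sq]
      gcongr
    have h5 : 0 < ‖q - p‖ := hρ.trans_le hcon
    have h6 : ‖G p‖ * ‖q - p‖ < c * ρ * ‖q - p‖ := by gcongr
    linarith
  have hqρ : q ∈ ball p ρ := by rwa [mem_ball, dist_eq_norm]
  refine ⟨q, hqρ, ?_⟩
  have h4 : IsLocalMin F q := hmin.isLocalMin (mem_of_superset (isOpen_ball.mem_nhds hqρ)
    ball_subset_closedBall)
  have h5 := h4.hasFDerivAt_eq_zero (hF q (hsub hq))
  have h6 := congrArg (fun A : E →L[ℝ] ℝ => A (G q)) h5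
  simpa using h6

/-- the distance to the zero of a strongly monotone field -/
theorem low_of_mono {G : E → E} {p q : E} {r K : ℝ} (hK : 0 < K)
    (hd : ∀ x ∈ ball p r, DifferentiableAt ℝ G x)
    (hc : ∀ x ∈ ball p r, ∀ v, K⁻¹ * ‖v‖ ^ 2 ≤ ⟪fderiv ℝ G x v, v⟫) (h0 : G p = 0)
    (hq : q ∈ ball p r) : ‖q - p‖ ≤ K * ‖G q‖ := by
  have h1 := mono_of_deriv hd hc hq
  rw [h0, sub_zero] at h1
  have h2 : ⟪G q, q - p⟫ ≤ ‖G q‖ * ‖q - p‖ := real_inner_le_norm _ _
  have h3 : K⁻¹ * ‖q - p‖ ^ 2 ≤ ‖G q‖ * ‖q - p‖ := h1.trans h2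
  rcases (norm_nonneg (q - p)).eq_or_lt with h | h
  · rw [← h]; positivity
  · have h4 : K⁻¹ * ‖q - p‖ ≤ ‖G q‖ := by
      have : K⁻¹ * ‖q - p‖ * ‖q - p‖ ≤ ‖G q‖ * ‖q - p‖ := by
        calc _ = K⁻¹ * ‖q - p‖ ^ 2 := by ring
          _ ≤ _ := h3
      exact le_of_mul_le_mul_right this h
    calc ‖q - p‖ = K * (K⁻¹ * ‖q - p‖) := by field_simp
      _ ≤ K * ‖G q‖ := by gcongr

/-- a coercive operator is invertible, with a bounded inverse -/
theorem coercive_inv [FiniteDimensional ℝ E] {A : E →L[ℝ] E} {K : ℝ} (hK : 0 < K)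
    (hA : ∀ v, K⁻¹ * ‖v‖ ^ 2 ≤ ⟪A v, v⟫) :
    ∃ B : E →L[ℝ] E, (∀ v, B (A v) = v) ∧ (∀ v, A (B v) = v) ∧ ‖B‖ ≤ K := by
  have hlow : ∀ v, ‖v‖ ≤ K * ‖A v‖ := by
    intro v
    have h3 : K⁻¹ * ‖v‖ ^ 2 ≤ ‖A v‖ * ‖v‖ := (hA v).trans (real_inner_le_norm _ _)
    rcases (norm_nonneg v).eq_or_lt with h | h
    · rw [← h]; positivity
    · have h4 : K⁻¹ * ‖v‖ ≤ ‖A v‖ := by
        have : K⁻¹ * ‖v‖ * ‖v‖ ≤ ‖A v‖ * ‖v‖ := by
          calc _ = K⁻¹ * ‖v‖ ^ 2 := by ring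
            _ ≤ _ := h3
        exact le_of_mul_le_mul_right this h
      calc ‖v‖ = K * (K⁻¹ * ‖v‖) := by field_simp
        _ ≤ K * ‖A v‖ := by gcongr
  have hinj : Function.Injective A.toLinearMap := by
    rw [← LinearMap.ker_eq_bot, LinearMap.ker_eq_bot']
    intro v hv
    have h1 := hlow v
    have h2 : A v = 0 := hv
    rw [h2, norm_zero, mul_zero] at h1
    exact norm_le_zero_iff.1 h1
  let e : E ≃L[ℝ] E := (LinearEquiv.ofInjectiveEndo A.toLinearMap hinj).toContinuousLinearEquiv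
  have he : ∀ v, e v = A v := fun v => rfl
  refine ⟨e.symm, fun v => ?_, fun v => ?_, ?_⟩
  · rw [← he]; exact e.symm_apply_apply v
  · rw [← he]; exact e.apply_symm_apply v
  · refine ContinuousLinearMap.opNorm_le_bound _ hK.le fun v => ?_
    have h1 := hlow (e.symm v)
    rwa [← he, e.apply_symm_apply] at h1

end Vale.Agent.P207.H229
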