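import Mathlib

/-!
# P207, all dimensions, PROD-GEO: the expansions at a crossing

`gs` is the gradient field of the generating function of a stable leaf, `gs p = 0`, and `q` is a
point near `p` with `π = - gs q`. Then `q = p + N π + ½ N T (N π) (N π) + O(π³)`, `N = -(D gs p)⁻¹`,
`T = D² gs p`, and a function `F` has the expansion `F q = F p + A π + B π π + O(π³)`.
-/

open Set Filter Topology Metric
open scoped ContDiff

set_option maxSynthPendingDepth 3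

noncomputable section

namespace Vale.Agent.P207.H229

variable {E F G : Type*} [NormedAddCommGroup E] [NormedSpace ℝ E] [NormedAddCommGroup F]
  [NormedSpace ℝ F] [NormedAddCommGroup G] [NormedSpace ℝ G]

/-! ### Taylor -/

theorem taylor0 {f : E → F} {p : E} {r K : ℝ} (hd : ∀ x ∈ ball p r, DifferentiableAt ℝ f x)
    (hb : ∀ x ∈ ball p r, ‖fderiv ℝ f x‖ ≤ K) {q : E} (hq : q ∈ ball p r) :
    ‖f q - f p‖ ≤ K * ‖q - p‖ :=
  (convex_ball p r).norm_image_sub_le_of_norm_fderiv_le hd hb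
    (mem_ball_self (dist_nonneg.trans_lt hq)) hq

theorem closedBall_sub {p q : E} {r : ℝ} (hq : q ∈ ball p r) :
    closedBall p ‖q - p‖ ⊆ ball p r := by
  intro x hx
  rw [mem_ball, dist_eq_norm] at hq ⊢
  rw [mem_closedBall, dist_eq_norm] at hx
  exact hx.trans_lt hq

theorem taylor1 {f : E → F} {p : E} {r K : ℝ} (hK : 0 ≤ K)
    (hd : ∀ x ∈ ball p r, DifferentiableAt ℝ f x)
    (hd2 : ∀ x ∈ ball p r, DifferentiableAt ℝ (fderiv ℝ f) x)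
    (hb : ∀ x ∈ ball p r, ‖fderiv ℝ (fderiv ℝ f) x‖ ≤ K) {q : E} (hq : q ∈ ball p r) :
    ‖f q - f p - fderiv ℝ f p (q - p)‖ ≤ K * ‖q - p‖ ^ 2 := by
  have hsub := closedBall_sub hq
  have h1 : ∀ x ∈ closedBall p ‖q - p‖, HasFDerivAt (fun x => f x - fderiv ℝ f p x)
      (fderiv ℝ f x - fderiv ℝ f p) x := fun x hx =>
    ((hd x (hsub hx)).hasFDerivAt).sub (fderiv ℝ f p).hasFDerivAt
  have h2 : ∀ x ∈ closedBall p ‖q - p‖, ‖fderiv ℝ f x - fderiv ℝ f p‖ ≤ K * ‖q - p‖ := by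
    intro x hx
    refine (taylor0 hd2 hb (hsub hx)).trans (mul_le_mul_of_nonneg_left ?_ hK)
    rwa [mem_closedBall, dist_eq_norm] at hx
  have h3 := (convex_closedBall p ‖q - p‖).norm_image_sub_le_of_norm_hasFDerivWithin_le
    (fun x hx => (h1 x hx).hasFDerivWithinAt) h2
    (mem_closedBall_self (norm_nonneg _)) (y := q) (by rw [mem_closedBall, dist_eq_norm])
  have h4 : f q - f p - fderiv ℝ f p (q - p)
      = f q - fderiv ℝ f p q - (f p - fderiv ℝ f p p) := by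
    rw [map_sub]; abel
  rw [h4]
  calc _ ≤ K * ‖q - p‖ * ‖q - p‖ := h3
    _ = _ := by ring

theorem taylor2 {f : E → F} {p : E} {r K : ℝ} (hK : 0 ≤ K)
    (hd : ∀ x ∈ ball p r, DifferentiableAt ℝ f x)
    (hd2 : ∀ x ∈ ball p r, DifferentiableAt ℝ (fderiv ℝ f) x)
    (hd3 : ∀ x ∈ ball p r, DifferentiableAt ℝ (fderiv ℝ (fderiv ℝ f)) x)
    (hb : ∀ x ∈ ball p r, ‖fderiv ℝ (fderiv ℝ (fderiv ℝ f)) x‖ ≤ K)
    (hs : ∀ v w, fderiv ℝ (fderiv ℝ f) p v w = fderiv ℝ (fderiv ℝ f) p w v)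
    {q : E} (hq : q ∈ ball p r) :
    ‖f q - f p - fderiv ℝ f p (q - p)
      - (2⁻¹ : ℝ) • fderiv ℝ (fderiv ℝ f) p (q - p) (q - p)‖ ≤ K * ‖q - p‖ ^ 3 := by
  have hsub := closedBall_sub hq
  set Q := fderiv ℝ (fderiv ℝ f) p with hQ
  have h1 : ∀ x ∈ closedBall p ‖q - p‖, HasFDerivAt
      (fun x => f x - fderiv ℝ f p x - (2⁻¹ : ℝ) • Q (x - p) (x - p))
      (fderiv ℝ f x - fderiv ℝ f p - Q (x - p)) x := by
    intro x hx
    have a1 : HasFDerivAt (fun x => x - p) (ContinuousLinearMap.id ℝ E) x :=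
      (hasFDerivAt_id x).sub_const p
    have a2 : HasFDerivAt (fun x => Q (x - p)) (Q ∘L ContinuousLinearMap.id ℝ E) x :=
      Q.hasFDerivAt.comp x a1
    have a3 := (a2.clm_apply a1).const_smul (2⁻¹ : ℝ)
    have a4 := (((hd x (hsub hx)).hasFDerivAt).sub (fderiv ℝ f p).hasFDerivAt).sub a3
    refine a4.congr_fderiv ?_
    ext v
    have h5 : (2⁻¹ : ℝ) • (Q v (x - p)) + (2⁻¹ : ℝ) • (Q (x - p) v) = Q (x - p) v := by
      rw [hs v (x - p), ← add_smul]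
      norm_num
    change fderiv ℝ f x v - fderiv ℝ f p v - (2⁻¹ : ℝ) • (Q (x - p) v + Q v (x - p))
      = fderiv ℝ f x v - fderiv ℝ f p v - Q (x - p) v
    rw [smul_add, add_comm, h5]
  have h2 : ∀ x ∈ closedBall p ‖q - p‖,
      ‖fderiv ℝ f x - fderiv ℝ f p - Q (x - p)‖ ≤ K * ‖q - p‖ ^ 2 := by
    intro x hx
    refine (taylor1 hK hd2 hd3 hb (hsub hx)).trans (mul_le_mul_of_nonneg_left ?_ hK)
    rw [mem_closedBall, dist_eq_norm] at hx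
    gcongr
  have h3 := (convex_closedBall p ‖q - p‖).norm_image_sub_le_of_norm_hasFDerivWithin_le
    (fun x hx => (h1 x hx).hasFDerivWithinAt) h2
    (mem_closedBall_self (norm_nonneg _)) (y := q) (by rw [mem_closedBall, dist_eq_norm])
  have h4 : f q - f p - fderiv ℝ f p (q - p) - (2⁻¹ : ℝ) • Q (q - p) (q - p)
      = (f q - fderiv ℝ f p q - (2⁻¹ : ℝ) • Q (q - p) (q - p))
        - (f p - fderiv ℝ f p p - (2⁻¹ : ℝ) • Q (p - p) (p - p)) := by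
    have : Q (p - p) (p - p) = 0 := by simp
    rw [this, smul_zero, map_sub (fderiv ℝ f p)]
    abel
  rw [h4]
  calc _ ≤ K * ‖q - p‖ ^ 2 * ‖q - p‖ := h3
    _ = _ := by ring

/-- `f` has three derivatives on a ball, bounded by `K`, the second one symmetric at the centre -/
structure C3 (f : E → F) (p : E) (r K : ℝ) : Prop where
  d1 : ∀ x ∈ ball p r, DifferentiableAt ℝ f x
  d2 : ∀ x ∈ ball p r, DifferentiableAt ℝ (fderiv ℝ f) x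
  d3 : ∀ x ∈ ball p r, DifferentiableAt ℝ (fderiv ℝ (fderiv ℝ f)) x
  b1 : ∀ x ∈ ball p r, ‖fderiv ℝ f x‖ ≤ K
  b2 : ∀ x ∈ ball p r, ‖fderiv ℝ (fderiv ℝ f) x‖ ≤ K
  b3 : ∀ x ∈ ball p r, ‖fderiv ℝ (fderiv ℝ (fderiv ℝ f)) x‖ ≤ K
  symm : ∀ v w, fderiv ℝ (fderiv ℝ f) p v w = fderiv ℝ (fderiv ℝ f) p w v

theorem C3.of_contDiffOn {f : E → F} {p : E} {r K : ℝ} (hr : 0 < r)
    (h : ContDiffOn ℝ ∞ f (ball p r))
    (b1 : ∀ x ∈ ball p r, ‖fderiv ℝ f x‖ ≤ K)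
    (b2 : ∀ x ∈ ball p r, ‖fderiv ℝ (fderiv ℝ f) x‖ ≤ K)
    (b3 : ∀ x ∈ ball p r, ‖fderiv ℝ (fderiv ℝ (fderiv ℝ f)) x‖ ≤ K) : C3 f p r K := by
  have h1 : ContDiffOn ℝ ∞ (fderiv ℝ f) (ball p r) := h.fderiv_of_isOpen isOpen_ball (by simp)
  have h2 : ContDiffOn ℝ ∞ (fderiv ℝ (fderiv ℝ f)) (ball p r) :=
    h1.fderiv_of_isOpen isOpen_ball (by simp)
  refine ⟨fun x hx => (h.contDiffAt (isOpen_ball.mem_nhds hx)).differentiableAt (by simp),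
    fun x hx => (h1.contDiffAt (isOpen_ball.mem_nhds hx)).differentiableAt (by simp),
    fun x hx => (h2.contDiffAt (isOpen_ball.mem_nhds hx)).differentiableAt (by simp),
    b1, b2, b3, fun v w => ?_⟩
  have h3 : ContDiffAt ℝ ∞ f p := h.contDiffAt (isOpen_ball.mem_nhds (mem_ball_self hr))
  have h4 : IsSymmSndFDerivAt ℝ f p := h3.isSymmSndFDerivAt (by
    rw [minSmoothness_of_isRCLikeNormedField]
    exact WithTop.coe_le_coe.2 (le_top : (2 : ℕ∞) ≤ ⊤))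
  exact h4.eq v w

/-! ### the position of the crossing -/

section

variable {gs : E → E} {p q : E} {r K : ℝ} {N : E →L[ℝ] E}

/-- the constant of the first expansion -/
def k1 (K r : ℝ) : ℝ := K * (K + K * r) * K ^ 2

theorem cross1 (hK : 0 ≤ K) (hg : C3 gs p r K) (h0 : gs p = 0) (hq : q ∈ ball p r)
    (hN : ∀ v, N (fderiv ℝ gs p v) = -v) (hNK : ‖N‖ ≤ K) (hlow : ‖q - p‖ ≤ K * ‖gs q‖) :
    ‖q - p - N (-gs q)‖ ≤ k1 K r * ‖gs q‖ ^ 2 := by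
  have hr : ‖q - p‖ < r := by rwa [mem_ball, dist_eq_norm] at hq
  have h1 := taylor1 hK hg.d1 hg.d2 hg.b2 hq
  rw [h0, sub_zero] at h1
  have h2 : q - p - N (-gs q) = N (gs q - fderiv ℝ gs p (q - p)) := by
    rw [map_sub, map_neg, hN]
    abel
  rw [h2]
  have h3 : ‖q - p‖ ^ 2 ≤ K ^ 2 * ‖gs q‖ ^ 2 := by
    rw [← mul_pow]
    gcongr
  have hr0 : 0 ≤ r := (norm_nonneg _).trans hr.le
  calc ‖N (gs q - fderiv ℝ gs p (q - p))‖ ≤ ‖N‖ * ‖gs q - fderiv ℝ gs p (q - p)‖ := N.le_opNorm _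
    _ ≤ K * (K * ‖q - p‖ ^ 2) := by gcongr
    _ ≤ K * (K * (K ^ 2 * ‖gs q‖ ^ 2)) := by gcongr
    _ ≤ K * ((K + K * r) * (K ^ 2 * ‖gs q‖ ^ 2)) := by
        gcongr
        nlinarith [mul_nonneg hK hr0]
    _ = k1 K r * ‖gs q‖ ^ 2 := by rw [k1]; ring

/-- the quadratic term -/
def quadT (gs : E → E) (p : E) (N : E →L[ℝ] E) : E →L[ℝ] E →L[ℝ] E :=
  (2⁻¹ : ℝ) • ((ContinuousLinearMap.compL ℝ E E E N) ∘L
    ((ContinuousLinearMap.compL ℝ E E E).flip N) ∘L (fderiv ℝ (fderiv ℝ gs) p) ∘L N)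

theorem quadT_apply (gs : E → E) (p : E) (N : E →L[ℝ] E) (v w : E) :
    quadT gs p N v w = (2⁻¹ : ℝ) • N (fderiv ℝ (fderiv ℝ gs) p (N v) (N w)) := by
  simp [quadT]

/-- the constant of the second expansion -/
def k2 (K r : ℝ) : ℝ := K * (K * k1 K r * (K + K) + K * K ^ 3)

theorem cross2 (hK : 0 ≤ K) (hg : C3 gs p r K) (h0 : gs p = 0) (hq : q ∈ ball p r)
    (hN : ∀ v, N (fderiv ℝ gs p v) = -v) (hNK : ‖N‖ ≤ K) (hlow : ‖q - p‖ ≤ K * ‖gs q‖) :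
    ‖q - p - N (-gs q) - quadT gs p N (-gs q) (-gs q)‖ ≤ k2 K r * ‖gs q‖ ^ 3 := by
  have hr : ‖q - p‖ < r := by rwa [mem_ball, dist_eq_norm] at hq
  have hr0 : 0 ≤ r := (norm_nonneg _).trans hr.le
  have h1 := cross1 hK hg h0 hq hN hNK hlow
  have h2 := taylor2 hK hg.d1 hg.d2 hg.d3 hg.b3 hg.symm hq
  rw [h0, sub_zero] at h2
  set T := fderiv ℝ (fderiv ℝ gs) p with hT
  set w := q - p with hw
  set u := N (-gs q) with hu
  have hTK : ‖T‖ ≤ K := hg.b2 p (mem_ball_self (hr0.lt_of_ne (by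
    rintro rfl; exact absurd hr (not_lt.2 (norm_nonneg _)))))
  have hk1 : 0 ≤ k1 K r := by unfold k1; positivity
  have hw' : ‖w‖ ≤ K * ‖gs q‖ := hlow
  have hu' : ‖u‖ ≤ K * ‖gs q‖ := by
    calc ‖u‖ ≤ ‖N‖ * ‖-gs q‖ := N.le_opNorm _
      _ ≤ K * ‖gs q‖ := by rw [norm_neg]; gcongr
  have e1 : w - u - quadT gs p N (-gs q) (-gs q)
      = N (gs q - fderiv ℝ gs p w - (2⁻¹ : ℝ) • T w w)
        + (2⁻¹ : ℝ) • N (T w (w - u) + T (w - u) u) := by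
    have h6 : T w (w - u) + T (w - u) u = T w w - T u u := by
      rw [map_sub (T w) w u, map_sub T w u, sub_apply]
      abel
    have h7 : N (gs q) = -u := by rw [hu, map_neg, neg_neg]
    rw [quadT_apply, ← hT, ← hu, map_sub N (gs q - _) _, map_sub N (gs q) _, hN, map_smul, h6, h7,
      map_sub N (T w w) _, smul_sub]
    abel
  rw [e1]
  have b1 : ‖N (gs q - fderiv ℝ gs p w - (2⁻¹ : ℝ) • T w w)‖ ≤ K * (K * K ^ 3) * ‖gs q‖ ^ 3 := by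
    calc _ ≤ ‖N‖ * ‖gs q - fderiv ℝ gs p w - (2⁻¹ : ℝ) • T w w‖ := N.le_opNorm _
      _ ≤ K * (K * ‖w‖ ^ 3) := by gcongr
      _ ≤ K * (K * (K * ‖gs q‖) ^ 3) := by gcongr
      _ = _ := by ring
  have b2 : ‖T w (w - u) + T (w - u) u‖ ≤ K * k1 K r * (K + K) * ‖gs q‖ ^ 3 := by
    have c1 : ‖T w (w - u)‖ ≤ K * (K * ‖gs q‖) * (k1 K r * ‖gs q‖ ^ 2) :=
      (T.le_opNorm₂ _ _).trans (by gcongr)
    have c2 : ‖T (w - u) u‖ ≤ K * (k1 K r * ‖gs q‖ ^ 2) * (K * ‖gs q‖) :=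
      (T.le_opNorm₂ _ _).trans (by gcongr)
    calc _ ≤ ‖T w (w - u)‖ + ‖T (w - u) u‖ := norm_add_le _ _
      _ ≤ _ := by nlinarith [c1, c2]
  have b3 : ‖(2⁻¹ : ℝ) • N (T w (w - u) + T (w - u) u)‖
      ≤ K * (K * k1 K r * (K + K)) * ‖gs q‖ ^ 3 := by
    rw [norm_smul, Real.norm_eq_abs, abs_of_pos (by norm_num : (0 : ℝ) < 2⁻¹)]
    have c3 : ‖N (T w (w - u) + T (w - u) u)‖ ≤ K * (K * k1 K r * (K + K) * ‖gs q‖ ^ 3) :=
      (N.le_opNorm _).trans (by gcongr)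
    have c4 : 0 ≤ K * (K * k1 K r * (K + K) * ‖gs q‖ ^ 3) := by positivity
    nlinarith [c3, c4]
  calc _ ≤ _ := norm_add_le _ _
    _ ≤ K * (K * K ^ 3) * ‖gs q‖ ^ 3 + K * (K * k1 K r * (K + K)) * ‖gs q‖ ^ 3 :=
        add_le_add b1 b3
    _ = k2 K r * ‖gs q‖ ^ 3 := by rw [k2]; ring

/-- the slope of the stable leaf at the crossing -/
theorem cross_slope (hK : 0 ≤ K) (hg : C3 gs p r K) (hq : q ∈ ball p r)
    (hN' : ∀ v, fderiv ℝ gs p (N v) = -v) (hNK : ‖N‖ ≤ K) {M : E →L[ℝ] E}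
    (hM : ∀ v, M (fderiv ℝ gs q v) = -v) (hMK : ‖M‖ ≤ K) (hlow : ‖q - p‖ ≤ K * ‖gs q‖) :
    ‖M - N‖ ≤ K ^ 4 * ‖gs q‖ := by
  have h1 : M - N = M ∘L (fderiv ℝ gs q - fderiv ℝ gs p) ∘L N := by
    ext v
    simp only [sub_apply, ContinuousLinearMap.comp_apply, map_sub, hM, hN', map_neg]
    abel
  have h2 := taylor0 hg.d2 hg.b2 hq
  rw [h1]
  calc _ ≤ ‖M‖ * ‖(fderiv ℝ gs q - fderiv ℝ gs p) ∘L N‖ := ContinuousLinearMap.opNorm_comp_le _ _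
    _ ≤ ‖M‖ * (‖fderiv ℝ gs q - fderiv ℝ gs p‖ * ‖N‖) := by
        gcongr; exact ContinuousLinearMap.opNorm_comp_le _ _
    _ ≤ K * (K * (K * ‖gs q‖) * K) := by
        gcongr
        exact h2.trans (by gcongr)
    _ = _ := by ring

/-! ### the expansion of a function along the stable leaf -/

/-- first coefficient -/
def cA (Fn : E → G) (p : E) (N : E →L[ℝ] E) : E →L[ℝ] G := fderiv ℝ Fn p ∘L N

/-- second coefficient -/
def cB (Fn : E → G) (gs : E → E) (p : E) (N : E →L[ℝ] E) : E →L[ℝ] E →L[ℝ] G :=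
  (ContinuousLinearMap.compL ℝ E E G (fderiv ℝ Fn p)) ∘L (quadT gs p N)
    + (2⁻¹ : ℝ) • (((ContinuousLinearMap.compL ℝ E E G).flip N) ∘L
      (fderiv ℝ (fderiv ℝ Fn) p) ∘L N)

theorem cB_apply (Fn : E → G) (gs : E → E) (p : E) (N : E →L[ℝ] E) (v w : E) :
    cB Fn gs p N v w = fderiv ℝ Fn p (quadT gs p N v w)
      + (2⁻¹ : ℝ) • fderiv ℝ (fderiv ℝ Fn) p (N v) (N w) := by
  simp [cB]

/-- the constant of the expansion of a function -/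
def k3 (K r : ℝ) : ℝ := K * K ^ 3 + K * k2 K r + K * k1 K r * (K + K)

theorem cross_fun (hK : 0 ≤ K) (hg : C3 gs p r K) (h0 : gs p = 0) (hq : q ∈ ball p r)
    (hN : ∀ v, N (fderiv ℝ gs p v) = -v) (hNK : ‖N‖ ≤ K) (hlow : ‖q - p‖ ≤ K * ‖gs q‖)
    {Fn : E → G} (hF : C3 Fn p r K) :
    ‖Fn q - Fn p - cA Fn p N (-gs q) - cB Fn gs p N (-gs q) (-gs q)‖ ≤ k3 K r * ‖gs q‖ ^ 3 := by
  have hr : ‖q - p‖ < r := by rwa [mem_ball, dist_eq_norm] at hq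
  have hr0 : 0 < r := (norm_nonneg _).trans_lt hr
  have h1 := cross1 hK hg h0 hq hN hNK hlow
  have h2 := cross2 hK hg h0 hq hN hNK hlow
  have h3 := taylor2 hK hF.d1 hF.d2 hF.d3 hF.b3 hF.symm hq
  set w := q - p with hw
  set u := N (-gs q) with hu
  set D := fderiv ℝ Fn p with hD
  set T := fderiv ℝ (fderiv ℝ Fn) p with hT
  have hk1 : 0 ≤ k1 K r := by unfold k1; positivity
  have hk2 : 0 ≤ k2 K r := by unfold k2; positivity
  have hDK : ‖D‖ ≤ K := hF.b1 p (mem_ball_self hr0)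
  have hTK : ‖T‖ ≤ K := hF.b2 p (mem_ball_self hr0)
  have hw' : ‖w‖ ≤ K * ‖gs q‖ := hlow
  have hu' : ‖u‖ ≤ K * ‖gs q‖ := by
    calc ‖u‖ ≤ ‖N‖ * ‖-gs q‖ := N.le_opNorm _
      _ ≤ K * ‖gs q‖ := by rw [norm_neg]; gcongr
  have e1 : Fn q - Fn p - cA Fn p N (-gs q) - cB Fn gs p N (-gs q) (-gs q)
      = (Fn q - Fn p - D w - (2⁻¹ : ℝ) • T w w)
        + D (w - u - quadT gs p N (-gs q) (-gs q))
        + (2⁻¹ : ℝ) • (T w (w - u) + T (w - u) u) := by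
    rw [cB_apply, cA, ContinuousLinearMap.comp_apply, ← hD, ← hT, ← hu]
    have : T w (w - u) + T (w - u) u = T w w - T u u := by
      rw [map_sub (T w) w u, map_sub T w u, sub_apply]
      abel
    rw [this, map_sub D (w - u) _, map_sub D w u, smul_sub]
    abel
  rw [e1]
  have b0 : ‖Fn q - Fn p - D w - (2⁻¹ : ℝ) • T w w‖ ≤ K * K ^ 3 * ‖gs q‖ ^ 3 := by
    calc _ ≤ K * ‖w‖ ^ 3 := h3
      _ ≤ K * (K * ‖gs q‖) ^ 3 := by gcongr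
      _ = _ := by ring
  have b1 : ‖D (w - u - quadT gs p N (-gs q) (-gs q))‖ ≤ K * k2 K r * ‖gs q‖ ^ 3 := by
    calc _ ≤ ‖D‖ * _ := D.le_opNorm _
      _ ≤ K * (k2 K r * ‖gs q‖ ^ 3) := by gcongr
      _ = _ := by ring
  have b2 : ‖T w (w - u) + T (w - u) u‖ ≤ K * k1 K r * (K + K) * ‖gs q‖ ^ 3 := by
    have c1 : ‖T w (w - u)‖ ≤ K * (K * ‖gs q‖) * (k1 K r * ‖gs q‖ ^ 2) :=
      (T.le_opNorm₂ _ _).trans (by gcongr)
    have c2 : ‖T (w - u) u‖ ≤ K * (k1 K r * ‖gs q‖ ^ 2) * (K * ‖gs q‖) :=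
      (T.le_opNorm₂ _ _).trans (by gcongr)
    calc _ ≤ ‖T w (w - u)‖ + ‖T (w - u) u‖ := norm_add_le _ _
      _ ≤ _ := by nlinarith [c1, c2]
  have b3 : ‖(2⁻¹ : ℝ) • (T w (w - u) + T (w - u) u)‖
      ≤ K * k1 K r * (K + K) * ‖gs q‖ ^ 3 := by
    rw [norm_smul, Real.norm_eq_abs, abs_of_pos (by norm_num : (0 : ℝ) < 2⁻¹)]
    have c4 : 0 ≤ K * k1 K r * (K + K) * ‖gs q‖ ^ 3 := by positivity
    nlinarith [b2, c4]
  calc _ ≤ ‖_‖ + ‖_‖ + ‖_‖ := norm_add₃_le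
    _ ≤ K * K ^ 3 * ‖gs q‖ ^ 3 + K * k2 K r * ‖gs q‖ ^ 3
        + K * k1 K r * (K + K) * ‖gs q‖ ^ 3 := add_le_add (add_le_add b0 b1) b3
    _ = k3 K r * ‖gs q‖ ^ 3 := by rw [k3]; ring

end

end Vale.Agent.P207.H229
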