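import Vale.Agent.P207.H281.LogDet

/-!
# P207, all dimensions: determinants of operators of a finite dimensional space
-/

open Set Filter Topology Metric
open scoped ContDiff RealInnerProductSpace

noncomputable section

namespace Vale.Agent.P207.H229

variable {E : Type*} [NormedAddCommGroup E]

section

variable [NormedSpace ℝ E] [FiniteDimensional ℝ E]

omit [FiniteDimensional ℝ E] in
theorem det_comp' (A B : E →L[ℝ] E) : (A ∘L B).det = A.det * B.det :=
  LinearMap.det_comp _ _

omit [FiniteDimensional ℝ E] in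
theorem det_smul' (c : ℝ) (P : E →L[ℝ] E) :
    (c • P).det = c ^ Module.finrank ℝ E * P.det := by
  change LinearMap.det (c • (P : E →ₗ[ℝ] E)) = _
  rw [LinearMap.det_smul]

theorem contDiff_det' : ContDiff ℝ ∞ (fun A : E →L[ℝ] E => A.det) :=
  (H281.contDiff_det (E := E)).of_le le_top

theorem det_ne_zero_iff' (A : E →L[ℝ] E) : A.det ≠ 0 ↔ A.IsInvertible := by
  constructor
  · intro h
    have h1 : IsUnit (LinearMap.det (A : E →ₗ[ℝ] E)) := isUnit_iff_ne_zero.2 h
    let b := Module.finBasis ℝ E
    refine ⟨(LinearEquiv.ofIsUnitDet (f := (A : E →ₗ[ℝ] E)) (v := b) (v' := b)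
      ?_).toContinuousLinearEquiv, ?_⟩
    · rwa [LinearMap.det_toMatrix]
    · ext x; rfl
  · rintro ⟨B, rfl⟩
    have h1 : ((B : E →L[ℝ] E) ∘L (B.symm : E →L[ℝ] E)).det = 1 := by
      have : (B : E →L[ℝ] E) ∘L (B.symm : E →L[ℝ] E) = ContinuousLinearMap.id ℝ E := by
        ext x; simp
      rw [this]
      exact LinearMap.det_id
    rw [det_comp'] at h1
    intro h0
    rw [h0, zero_mul] at h1
    exact zero_ne_one h1

end

section

variable [InnerProductSpace ℝ E] [FiniteDimensional ℝ E]

theorem det_adjoint' (A : E →L[ℝ] E) :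
    (ContinuousLinearMap.adjoint A).det = A.det := by
  classical
  let b := stdOrthonormalBasis ℝ E
  have h1 : (ContinuousLinearMap.adjoint A).det
      = (LinearMap.toMatrix b.toBasis b.toBasis
        ((ContinuousLinearMap.adjoint A : E →L[ℝ] E) : E →ₗ[ℝ] E)).det := by
    rw [LinearMap.det_toMatrix]
  have h2 : A.det = (LinearMap.toMatrix b.toBasis b.toBasis (A : E →ₗ[ℝ] E)).det := by
    rw [LinearMap.det_toMatrix]
  have h3 : LinearMap.toMatrix b.toBasis b.toBasis
      ((ContinuousLinearMap.adjoint A : E →L[ℝ] E) : E →ₗ[ℝ] E)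
      = (LinearMap.toMatrix b.toBasis b.toBasis (A : E →ₗ[ℝ] E)).transpose := by
    ext i j
    rw [Matrix.transpose_apply, LinearMap.toMatrix_apply, LinearMap.toMatrix_apply]
    simp only [OrthonormalBasis.coe_toBasis, OrthonormalBasis.coe_toBasis_repr_apply,
      OrthonormalBasis.repr_apply_apply]
    change ⟪b i, ContinuousLinearMap.adjoint A (b j)⟫ = ⟪b j, A (b i)⟫
    rw [ContinuousLinearMap.adjoint_inner_right, real_inner_comm]
  rw [h1, h2, h3, Matrix.det_transpose]

/-- the determinant of a symmetric form read in another basis -/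
theorem det_form' {S U P : E →L[ℝ] E}
    (h : ∀ v w, ⟪S v, w⟫ = ⟪U (P v), P w⟫) : S.det = U.det * P.det ^ 2 := by
  have h1 : S = ContinuousLinearMap.adjoint P ∘L (U ∘L P) := by
    ext1 v
    refine ext_inner_right ℝ fun w => ?_
    rw [h]
    change _ = ⟪ContinuousLinearMap.adjoint P (U (P v)), w⟫
    rw [ContinuousLinearMap.adjoint_inner_left]
  rw [h1, det_comp', det_comp', det_adjoint']
  ring

end

end Vale.Agent.P207.H229
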