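import Vale.Agent.P207.H281.PD
import Vale.Agent.P207.H229.CrossE
import Vale.Agent.P207.H229.Crit

/-!
# P207, all dimensions, PROD-GEO: from the crossings on one disc to the data `PD`

`Cr E`: on the disc of one frame, in one coordinate `q ∈ ball 0 1` (the affine one), the generating
functions `dl y` of the leaves (labels `y`), the generating functions `gm p` of the stable leaves
through the points `p` of the disc, the logarithms `X y`, `Y p` of the densities of the Margulis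
areas. `Cr.Ok K r r0`: uniform bounds and the product formula at the crossings (`star`).
Output: `Cr.pd : PD E` with all the estimates of `PD.Ok` which concern `hol, N, Mp, A, B, prod`.
-/

open Set Filter Topology Metric
open scoped ContDiff RealInnerProductSpace

set_option maxSynthPendingDepth 3

noncomputable section

namespace Vale.Agent.P207.H229

open Vale.Agent.P207.H281 (PD LQ SmB)

variable {E : Type*} [NormedAddCommGroup E] [InnerProductSpace ℝ E]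

/-- the functions on the disc of one frame -/
structure Cr (E : Type*) [NormedAddCommGroup E] [InnerProductSpace ℝ E] where
  dl : E → E → ℝ
  gm : E → E → ℝ
  X : E → E → ℝ
  Y : E → E → ℝ
  c : ℝ

variable [FiniteDimensional ℝ E]

namespace Cr

/-- the gradient field of the leaf `y` -/
def gd (D : Cr E) (y q : E) : E := gradient (D.dl y) q

/-- the gradient field of the stable leaf of `p` -/
def gs (D : Cr E) (p q : E) : E := gradient (D.gm p) q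

/-- the density of the stable leaf, minus the logarithm of the Hessian -/
def Fn (D : Cr E) (p q : E) : ℝ := D.Y p q - Real.log (fderiv ℝ (D.gs p) q).det

/-- the bounds, and the product formula -/
structure Ok (D : Cr E) (K r r0 : ℝ) : Prop where
  K1 : 1 ≤ K
  r_pos : 0 < r
  r_le : r ≤ 1 / 8
  dl_d1 : ∀ y, ‖y‖ ≤ r0 → ∀ q ∈ ball (0 : E) 1, DifferentiableAt ℝ (D.dl y) q
  dl_d2 : ∀ y, ‖y‖ ≤ r0 → ∀ q ∈ ball (0 : E) 1, DifferentiableAt ℝ (D.gd y) q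
  gd_small : ∀ y, ‖y‖ ≤ r0 → ∀ q ∈ ball (0 : E) 1, ‖D.gd y q‖ ≤ r / (8 * K)
  hd_small : ∀ y, ‖y‖ ≤ r0 → ∀ q ∈ ball (0 : E) 1, ‖fderiv ℝ (D.gd y) q‖ ≤ (2 * K)⁻¹
  gm_d1 : ∀ p, ‖p‖ < 7 / 8 → ∀ q ∈ ball p r, DifferentiableAt ℝ (D.gm p) q
  gs_zero : ∀ p, ‖p‖ < 7 / 8 → D.gs p p = 0
  gs_c3 : ∀ p, ‖p‖ < 7 / 8 → C3 (D.gs p) p r K
  gs_low : ∀ p, ‖p‖ < 7 / 8 → ∀ q ∈ ball p r, ∀ v,
    K⁻¹ * ‖v‖ ^ 2 ≤ ⟪fderiv ℝ (D.gs p) q v, v⟫
  Fn_c3 : ∀ p, ‖p‖ < 7 / 8 → C3 (D.Fn p) p r K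
  star : ∀ y p q, ‖y‖ ≤ r0 → ‖p‖ < 7 / 8 → q ∈ ball p r → D.gd y q + D.gs p q = 0 →
    0 < (fderiv ℝ (D.gd y) q + fderiv ℝ (D.gs p) q).det ∧
    Real.log (fderiv ℝ (D.gd y) q + fderiv ℝ (D.gs p) q).det = D.X y q + D.Y p q
  base : ∀ p, ‖p‖ < 7 / 8 → D.Fn p p = -D.c

variable {D : Cr E} {K r r0 : ℝ}

theorem Ok.K0 (h : D.Ok K r r0) : 0 < K := zero_lt_one.trans_le h.K1

theorem Ok.sub (h : D.Ok K r r0) {p : E} (hp : ‖p‖ < 7 / 8) : ball p r ⊆ ball (0 : E) 1 := by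
  intro q hq
  rw [mem_ball, dist_eq_norm] at hq
  rw [mem_ball_zero_iff]
  have h1 : ‖q‖ ≤ ‖q - p‖ + ‖p‖ := by
    have := norm_add_le (q - p) p
    rwa [sub_add_cancel] at this
  linarith [h.r_le]

/-- the crossing -/
theorem Ok.exists_hol (h : D.Ok K r r0) {y p : E} (hy : ‖y‖ ≤ r0) (hp : ‖p‖ < 7 / 8) :
    ∃ q ∈ ball p r, D.gd y q + D.gs p q = 0 := by
  have hK := h.K0
  have hr := h.r_pos
  have hsub := h.sub hp
  have hgrad : ∀ x ∈ ball p r, HasFDerivAt (fun q => D.dl y q + D.gm p q)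
      (innerSL ℝ (D.gd y x + D.gs p x)) x := by
    intro x hx
    have h1 := (h.dl_d1 y hy x (hsub hx)).hasGradientAt.hasFDerivAt
    have h2 := (h.gm_d1 p hp x hx).hasGradientAt.hasFDerivAt
    refine (h1.add h2).congr_fderiv ?_
    ext v
    simp [gd, gs, inner_add_left]
  obtain ⟨q, hq, h0⟩ := exists_crit (F := fun q => D.dl y q + D.gm p q)
    (G := fun q => D.gd y q + D.gs p q) (p := p) (r := r) (c := (2 * K)⁻¹) (ρ := r / 2)
    (by positivity) hgrad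
    (fun x hx => (h.dl_d2 y hy x (hsub hx)).add ((h.gs_c3 p hp).d1 x hx))
    (fun x hx v => by
      rw [fderiv_fun_add (h.dl_d2 y hy x (hsub hx)) ((h.gs_c3 p hp).d1 x hx), add_apply,
        inner_add_left]
      have h1 := h.gs_low p hp x hx v
      have h2 : -⟪fderiv ℝ (D.gd y) x v, v⟫ ≤ (2 * K)⁻¹ * ‖v‖ ^ 2 := by
        calc -⟪fderiv ℝ (D.gd y) x v, v⟫ ≤ ‖fderiv ℝ (D.gd y) x v‖ * ‖v‖ :=
              (neg_le_abs _).trans (abs_real_inner_le_norm _ _)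
          _ ≤ (‖fderiv ℝ (D.gd y) x‖ * ‖v‖) * ‖v‖ := by
              gcongr; exact ContinuousLinearMap.le_opNorm _ _
          _ ≤ ((2 * K)⁻¹ * ‖v‖) * ‖v‖ := by
              gcongr; exact h.hd_small y hy x (hsub hx)
          _ = _ := by ring
      have h3 : K⁻¹ = (2 * K)⁻¹ + (2 * K)⁻¹ := by field_simp; norm_num
      rw [h3] at h1
      nlinarith [h1, h2])
    (by positivity) (by linarith) (by
      rw [h.gs_zero p hp, add_zero]
      have h1 := h.gd_small y hy p (hsub (mem_ball_self hr))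
      refine h1.trans_lt ?_
      have : (2 * K)⁻¹ * (r / 2) = 2 * (r / (8 * K)) := by field_simp; ring
      rw [this]
      have : 0 < r / (8 * K) := by positivity
      linarith)
  exact ⟨q, ball_subset_ball (by linarith) hq, h0⟩

/-- the crossing -/
def hol (D : Cr E) (r : ℝ) (y p : E) : E := by
  classical
  exact if h : ∃ q ∈ ball p r, D.gd y q + D.gs p q = 0 then h.choose else p

theorem Ok.hol_spec (h : D.Ok K r r0) {y p : E} (hy : ‖y‖ ≤ r0) (hp : ‖p‖ < 7 / 8) :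
    D.hol r y p ∈ ball p r ∧ D.gd y (D.hol r y p) + D.gs p (D.hol r y p) = 0 := by
  have h1 := h.exists_hol hy hp
  rw [hol, dif_pos h1]
  exact h1.choose_spec

/-- the slopes -/
def slope (D : Cr E) (p q : E) : E →L[ℝ] E := -Ring.inverse (fderiv ℝ (D.gs p) q)

theorem Ok.slope_spec (h : D.Ok K r r0) {p q : E} (hp : ‖p‖ < 7 / 8) (hq : q ∈ ball p r) :
    (∀ v, D.slope p q (fderiv ℝ (D.gs p) q v) = -v) ∧
    (∀ v, fderiv ℝ (D.gs p) q (D.slope p q v) = -v) ∧ ‖D.slope p q‖ ≤ K := by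
  obtain ⟨B, h1, h2, h3⟩ := coercive_inv h.K0 (h.gs_low p hp q hq)
  have hu : Ring.inverse (fderiv ℝ (D.gs p) q) = B := by
    let u : (E →L[ℝ] E)ˣ := ⟨fderiv ℝ (D.gs p) q, B, ContinuousLinearMap.ext h2,
      ContinuousLinearMap.ext h1⟩
    exact Ring.inverse_unit u
  rw [slope, hu]
  refine ⟨fun v => ?_, fun v => ?_, ?_⟩
  · rw [neg_apply, h1]
  · rw [neg_apply, map_neg, h2]
  · rwa [norm_neg]

theorem Ok.det_ne (h : D.Ok K r r0) {p q : E} (hp : ‖p‖ < 7 / 8) (hq : q ∈ ball p r) :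
    (fderiv ℝ (D.gs p) q).det ≠ 0 := by
  obtain ⟨B, h1, h2, h3⟩ := coercive_inv h.K0 (h.gs_low p hp q hq)
  have h4 : (fderiv ℝ (D.gs p) q ∘L B).det = 1 := by
    have : fderiv ℝ (D.gs p) q ∘L B = ContinuousLinearMap.id ℝ E := ContinuousLinearMap.ext h2
    rw [this]
    exact LinearMap.det_id
  have h5 : (fderiv ℝ (D.gs p) q ∘L B).det = (fderiv ℝ (D.gs p) q).det * B.det :=
    LinearMap.det_comp _ _
  rw [h5] at h4
  intro h0
  rw [h0, zero_mul] at h4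
  exact zero_ne_one h4

/-- the data of the product formula -/
def pd (D : Cr E) (r : ℝ) : PD E where
  g := D.gd
  N p := D.slope p p
  hol := D.hol r
  Mp y p := D.slope p (D.hol r y p)
  X := D.X
  c := D.c
  A p := cA (D.Fn p) p (D.slope p p)
  B p := cB (D.Fn p) (D.gs p) p (D.slope p p)

/-- the constant -/
def KK (K r : ℝ) : ℝ :=
  K + k1 K r + K ^ 4 + k3 K r + K * K + (K * (K * K * K * K) + K * K * K)

theorem KK_le (hK : 1 ≤ K) (hr : 0 < r) : K ≤ KK K r ∧ k1 K r ≤ KK K r ∧ K ^ 4 ≤ KK K r ∧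
    k3 K r ≤ KK K r ∧ K * K ≤ KK K r ∧ K * (K * K * K * K) + K * K * K ≤ KK K r ∧ 1 ≤ KK K r := by
  have h0 : 0 ≤ K := by linarith
  have a1 : 0 ≤ k1 K r := by unfold k1; positivity
  have a2 : 0 ≤ k2 K r := by unfold k2; positivity
  have a3 : 0 ≤ k3 K r := by unfold k3; positivity
  have a4 : 0 ≤ K ^ 4 := by positivity
  have a5 : 0 ≤ K * K := by positivity
  have a6 : 0 ≤ K * (K * K * K * K) + K * K * K := by positivity
  unfold KK
  refine ⟨?_, ?_, ?_, ?_, ?_, ?_, ?_⟩ <;> linarith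

theorem Ok.pd_hol_mem (h : D.Ok K r r0) {y p : E} (hy : ‖y‖ ≤ r0) (hp : ‖p‖ < 7 / 8) :
    ‖(D.pd r).hol y p‖ < 1 := by
  have h1 := h.sub hp (h.hol_spec hy hp).1
  rwa [mem_ball_zero_iff] at h1

/-- the momentum at the crossing -/
theorem Ok.pd_p (h : D.Ok K r r0) {y p : E} (hy : ‖y‖ ≤ r0) (hp : ‖p‖ < 7 / 8) :
    (D.pd r).p y p = -D.gs p (D.hol r y p) := by
  have h1 := (h.hol_spec hy hp).2
  exact eq_neg_of_add_eq_zero_left h1

theorem Ok.pd_N_bd (h : D.Ok K r r0) {p : E} (hp : ‖p‖ < 7 / 8) : ‖(D.pd r).N p‖ ≤ KK K r :=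
  (h.slope_spec hp (mem_ball_self h.r_pos)).2.2.trans (KK_le h.K1 h.r_pos).1

theorem Ok.low (h : D.Ok K r r0) {p q : E} (hp : ‖p‖ < 7 / 8) (hq : q ∈ ball p r) :
    ‖q - p‖ ≤ K * ‖D.gs p q‖ :=
  low_of_mono h.K0 (h.gs_c3 p hp).d1 (h.gs_low p hp) (h.gs_zero p hp) hq

theorem Ok.pd_hol_bd (h : D.Ok K r r0) {y p : E} (hy : ‖y‖ ≤ r0) (hp : ‖p‖ < 7 / 8) :
    ‖(D.pd r).hol y p - p - (D.pd r).N p ((D.pd r).p y p)‖
      ≤ KK K r * ‖(D.pd r).p y p‖ ^ 2 := by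
  rw [h.pd_p hy hp, norm_neg]
  have hq := (h.hol_spec hy hp).1
  have hs := h.slope_spec hp (mem_ball_self h.r_pos)
  refine (cross1 h.K0.le (h.gs_c3 p hp) (h.gs_zero p hp) hq hs.1 hs.2.2 (h.low hp hq)).trans ?_
  gcongr
  exact (KK_le h.K1 h.r_pos).2.1

theorem Ok.pd_Mp_bd (h : D.Ok K r r0) {y p : E} (hy : ‖y‖ ≤ r0) (hp : ‖p‖ < 7 / 8) :
    ‖(D.pd r).Mp y p - (D.pd r).N p‖ ≤ KK K r * ‖(D.pd r).p y p‖ := by
  rw [h.pd_p hy hp, norm_neg]
  have hq := (h.hol_spec hy hp).1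
  have hs := h.slope_spec hp (mem_ball_self h.r_pos)
  have hs' := h.slope_spec hp hq
  refine (cross_slope h.K0.le (h.gs_c3 p hp) hq hs.2.1 hs.2.2 hs'.1 hs'.2.2
    (h.low hp hq)).trans ?_
  gcongr
  exact (KK_le h.K1 h.r_pos).2.2.1

theorem Ok.pd_A_bd (h : D.Ok K r r0) {p : E} (hp : ‖p‖ < 7 / 8) : ‖(D.pd r).A p‖ ≤ KK K r := by
  have hs := h.slope_spec hp (mem_ball_self h.r_pos)
  have h1 := (h.Fn_c3 p hp).b1 p (mem_ball_self h.r_pos)
  calc ‖fderiv ℝ (D.Fn p) p ∘L D.slope p p‖ ≤ ‖fderiv ℝ (D.Fn p) p‖ * ‖D.slope p p‖ :=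
        ContinuousLinearMap.opNorm_comp_le _ _
    _ ≤ K * K := by gcongr; exacts [h.K0.le, hs.2.2]
    _ ≤ _ := (KK_le h.K1 h.r_pos).2.2.2.2.1

theorem Ok.pd_B_bd (h : D.Ok K r r0) {p : E} (hp : ‖p‖ < 7 / 8) : ‖(D.pd r).B p‖ ≤ KK K r := by
  have hK := h.K0
  have hs := h.slope_spec hp (mem_ball_self h.r_pos)
  have h1 := (h.Fn_c3 p hp).b1 p (mem_ball_self h.r_pos)
  have h2 := (h.Fn_c3 p hp).b2 p (mem_ball_self h.r_pos)
  have h3 := (h.gs_c3 p hp).b2 p (mem_ball_self h.r_pos)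
  refine le_trans ?_ (KK_le h.K1 h.r_pos).2.2.2.2.2.1
  refine ContinuousLinearMap.opNorm_le_bound₂ _ (by positivity) fun v w => ?_
  change ‖cB (D.Fn p) (D.gs p) p (D.slope p p) v w‖ ≤ _
  rw [cB_apply, quadT_apply]
  have hv : ‖D.slope p p v‖ ≤ K * ‖v‖ :=
    ((D.slope p p).le_opNorm v).trans (by gcongr; exact hs.2.2)
  have hw : ‖D.slope p p w‖ ≤ K * ‖w‖ :=
    ((D.slope p p).le_opNorm w).trans (by gcongr; exact hs.2.2)
  have e1 : ‖(2⁻¹ : ℝ) • D.slope p p (fderiv ℝ (fderiv ℝ (D.gs p)) p (D.slope p p v)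
      (D.slope p p w))‖ ≤ K * (K * (K * ‖v‖) * (K * ‖w‖)) := by
    rw [norm_smul, Real.norm_eq_abs, abs_of_pos (by norm_num : (0 : ℝ) < 2⁻¹)]
    have e2 : ‖D.slope p p (fderiv ℝ (fderiv ℝ (D.gs p)) p (D.slope p p v)
        (D.slope p p w))‖ ≤ K * (K * (K * ‖v‖) * (K * ‖w‖)) := by
      refine ((D.slope p p).le_opNorm _).trans ?_
      gcongr
      · exact hs.2.2
      · refine (ContinuousLinearMap.le_opNorm₂ _ _ _).trans ?_
        gcongr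
    have e3 : 0 ≤ K * (K * (K * ‖v‖) * (K * ‖w‖)) := by positivity
    linarith
  have e4 : ‖fderiv ℝ (D.Fn p) p ((2⁻¹ : ℝ) • D.slope p p (fderiv ℝ (fderiv ℝ (D.gs p)) p
      (D.slope p p v) (D.slope p p w)))‖ ≤ K * (K * (K * (K * ‖v‖) * (K * ‖w‖))) := by
    refine (ContinuousLinearMap.le_opNorm _ _).trans ?_
    gcongr
  have e5 : ‖(2⁻¹ : ℝ) • fderiv ℝ (fderiv ℝ (D.Fn p)) p (D.slope p p v) (D.slope p p w)‖
      ≤ K * (K * ‖v‖) * (K * ‖w‖) := by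
    rw [norm_smul, Real.norm_eq_abs, abs_of_pos (by norm_num : (0 : ℝ) < 2⁻¹)]
    have e6 : ‖fderiv ℝ (fderiv ℝ (D.Fn p)) p (D.slope p p v) (D.slope p p w)‖
        ≤ K * (K * ‖v‖) * (K * ‖w‖) := by
      refine (ContinuousLinearMap.le_opNorm₂ _ _ _).trans ?_
      gcongr
    have e7 : 0 ≤ K * (K * ‖v‖) * (K * ‖w‖) := by positivity
    linarith
  calc _ ≤ _ := norm_add_le _ _
    _ ≤ K * (K * (K * (K * ‖v‖) * (K * ‖w‖))) + K * (K * ‖v‖) * (K * ‖w‖) := add_le_add e4 e5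
    _ = (K * (K * K * K * K) + K * K * K) * ‖v‖ * ‖w‖ := by ring

/-- **the product formula, to second order in the momentum** -/
theorem Ok.pd_prod (h : D.Ok K r r0) {y p : E} (hy : ‖y‖ ≤ r0) (hp : ‖p‖ < 7 / 8) :
    |Real.log (1 - ((D.pd r).H y ((D.pd r).hol y p)).comp ((D.pd r).Mp y p)).det
      - (D.pd r).Xi y ((D.pd r).hol y p) - (D.pd r).A p ((D.pd r).p y p)
      - (D.pd r).B p ((D.pd r).p y p) ((D.pd r).p y p)| ≤ KK K r * ‖(D.pd r).p y p‖ ^ 3 := by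
  obtain ⟨hq, h0⟩ := h.hol_spec hy hp
  have hs := h.slope_spec hp (mem_ball_self h.r_pos)
  have hs' := h.slope_spec hp hq
  have h1 := cross_fun h.K0.le (h.gs_c3 p hp) (h.gs_zero p hp) hq hs.1 hs.2.2 (h.low hp hq)
    (h.Fn_c3 p hp)
  rw [h.pd_p hy hp, norm_neg]
  set q := D.hol r y p with hqd
  have hH : (D.pd r).H y ((D.pd r).hol y p) = fderiv ℝ (D.gd y) q := rfl
  have hM : (D.pd r).Mp y p = D.slope p q := rfl
  obtain ⟨d1, d2⟩ := h.star y p q hy hp hq h0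
  have hne := h.det_ne hp hq
  -- the factorisation
  have e1 : fderiv ℝ (D.gd y) q + fderiv ℝ (D.gs p) q
      = (1 - (fderiv ℝ (D.gd y) q).comp (D.slope p q)) ∘L fderiv ℝ (D.gs p) q := by
    ext v
    simp only [add_apply, ContinuousLinearMap.comp_apply, sub_apply, hs'.1, map_neg,
      one_apply_eq_self]
    abel
  have e2 : (fderiv ℝ (D.gd y) q + fderiv ℝ (D.gs p) q).det
      = (1 - (fderiv ℝ (D.gd y) q).comp (D.slope p q)).det * (fderiv ℝ (D.gs p) q).det := by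
    rw [e1]
    exact LinearMap.det_comp _ _
  have hne' : (1 - (fderiv ℝ (D.gd y) q).comp (D.slope p q)).det ≠ 0 := by
    intro hz
    rw [e2, hz, zero_mul] at d1
    exact lt_irrefl _ d1
  rw [e2, Real.log_mul hne' hne] at d2
  have e3 : Real.log (1 - ((D.pd r).H y ((D.pd r).hol y p)).comp ((D.pd r).Mp y p)).det
      - (D.pd r).Xi y ((D.pd r).hol y p) = D.Fn p q - D.Fn p p := by
    rw [hH, hM, h.base p hp]
    change _ - (D.X y q - D.c) = D.Y p q - Real.log (fderiv ℝ (D.gs p) q).det - -D.c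
    linarith
  rw [e3, ← Real.norm_eq_abs]
  refine h1.trans ?_
  gcongr
  exact (KK_le h.K1 h.r_pos).2.2.2.1

/-- **all the hypotheses of `PD.Ok`**, from the bounds on the leaves, the densities and Lemma Q -/
theorem Ok.pd_ok (h : D.Ok K r r0) {θ : ℝ} {Ck : ℕ → ℝ} {CQ : ℝ → ℝ → (ℕ → ℝ) → ℝ → ℝ} {K' : ℝ}
    (hK' : KK K r ≤ K')
    (g_smooth : ∀ y, ‖y‖ ≤ r0 → ContDiffOn ℝ ∞ (D.gd y) (ball 0 1))
    (g_bd : ∀ y, ‖y‖ ≤ r0 → ∀ k, ∀ q ∈ ball (0 : E) 1,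
      ‖iteratedFDeriv ℝ k (fun q => D.gd y q - y) q‖ ≤ Ck k * ‖y‖ ^ (1 + θ))
    (g_zero : ∀ y, ‖y‖ ≤ r0 → D.gd y 0 = y)
    (g_symm : ∀ y, ‖y‖ ≤ r0 → ∀ q ∈ ball (0 : E) 1, ∀ u v,
      ⟪fderiv ℝ (D.gd y) q u, v⟫ = ⟪u, fderiv ℝ (D.gd y) q v⟫)
    (N_bd : ∀ p, ‖p‖ < 1 → ‖D.slope p p‖ ≤ K')
    (X_smB : ∀ y, ‖y‖ ≤ r0 → SmB Ck 1 (D.X y))
    (lq : LQ (fun p => D.slope p p) CQ) : (D.pd r).Ok K' θ r0 Ck CQ where
  g_smooth := g_smooth
  g_bd := g_bd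
  g_zero := g_zero
  g_symm := g_symm
  N_bd := N_bd
  hol_mem y x hy hx := h.pd_hol_mem hy hx
  hol_bd y x hy hx := (h.pd_hol_bd hy hx).trans (by gcongr)
  Mp_bd y x hy hx := (h.pd_Mp_bd hy hx).trans (by gcongr)
  X_smB := X_smB
  A_bd x hx := (h.pd_A_bd hx).trans hK'
  B_bd x hx := (h.pd_B_bd hx).trans hK'
  prod y x hy hx := (h.pd_prod hy hx).trans (by gcongr)
  lq := lq

end Cr

end Vale.Agent.P207.H229
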